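import Vale.Agent.P207.N4.H965.OfV
import Vale.Agent.P207.N7.H58.Pic

/-!
# P207, line N7, row T1: affine charts of the unstable leaves, part 6

`exists_aff` : the structure `Aff L` from the rates with a clock.
-/

open Set Filter Topology Metric MeasureTheory
open scoped ContDiff Nat

set_option linter.unusedSectionVars false

noncomputable section

namespace Vale.Agent.P207.N4.Y.H965

open Vale.Agent.P207.N3.H646 Vale.Agent.P207.H77
open Vale.Agent.P207.N4 Vale.Agent.P207.N4.H646 Vale.Agent.P207.N4.H77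
open Vale.Agent.P207.N4.H965

variable [Dim]

variable {Γ X B : Type} [Group Γ] [MetricSpace X] [ProperSpace X] [MulAction Γ X]
  [IsIsometricSMul Γ X] [TopologicalSpace B] [CompactSpace B] [T2Space B] [MulAction Γ B]
  [ContinuousConstSMul Γ B]

attribute [local irreducible] lin Dt

variable {L : Leaf Γ X B} {a b : ℝ} (R : LRates L a b) (hB : Bu.Bun L)
include R hB

/-- the derivative of the linearisation is injective at every point of the disc -/
theorem lin_der_inj (x : X) {u : E2} (hu : u ∈ ball (0 : E2) 3) (v : E2)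
    (hv : fderiv ℝ (lin L x) u v = 0) : v = 0 := by
  obtain ⟨δ, hδ0, hδ1, hδ⟩ := Bu.lin_approx R hB
  obtain ⟨C, hC, hs⟩ := pm_small' R
  have ha := R.a0
  have hlim : Tendsto (fun T : ℝ => C * Real.exp (-a * T)) atTop (𝓝 0) := by
    have h1 : Tendsto (fun t : ℝ => Real.exp (-(a * t))) atTop (𝓝 0) :=
      Real.tendsto_exp_neg_atTop_nhds_zero.comp (Tendsto.const_mul_atTop ha tendsto_id)
    have h2 := h1.const_mul C
    rw [mul_zero] at h2
    refine h2.congr fun t => ?_
    rw [neg_mul]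
  obtain ⟨T, hT1, hT2⟩ := (((tendsto_order.1 hlim).2 δ hδ0).and
    (eventually_ge_atTop L.t1)).exists
  set z := L.φ (-T) x with hz
  have hw : ‖pm L T x u‖ ≤ δ := (hs x T hT2 u hu).trans hT1.le
  have hwc : pm L T x u ∈ closedBall (0 : E2) δ := mem_closedBall_zero_iff.2 hw
  have hw3 : pm L T x u ∈ ball (0 : E2) 3 := closedBall_subset_ball (by linarith) hwc
  have h1 : lin L x =ᶠ[𝓝 u] fun w => Dt L T z (lin L z (pm L T x w)) := by
    filter_upwards [isOpen_ball.mem_nhds hu] with w hw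
    exact Bu.lin_shift R hB hT2 x hw
  have h2 : HasFDerivAt (pm L T x) (fderiv ℝ (pm L T x) u) u :=
    tau_hasFDerivAt L (em_back L T x) (mem_dm_back L hT2 x hu)
  have h3 : HasFDerivAt (lin L z) (fderiv ℝ (lin L z) (pm L T x u)) (pm L T x u) :=
    (((Bu.jc_lin hB).smooth (z, pm L T x u) ⟨trivial, hw3⟩).differentiableAt
      (by simp)).hasFDerivAt
  have h4 : HasFDerivAt (fun w => Dt L T z (lin L z (pm L T x w)))
      ((Dt L T z).comp ((fderiv ℝ (lin L z) (pm L T x u)).comp (fderiv ℝ (pm L T x) u))) u :=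
    (Dt L T z).hasFDerivAt.comp u (h3.comp u h2)
  rw [h1.fderiv_eq, h4.fderiv] at hv
  have h5 : Dt L T z (fderiv ℝ (lin L z) (pm L T x u) (fderiv ℝ (pm L T x) u v)) = 0 := hv
  have h6 : fderiv ℝ (lin L z) (pm L T x u) (fderiv ℝ (pm L T x) u v) = 0 := by
    have h7 : Dt L T z (fderiv ℝ (lin L z) (pm L T x u) (fderiv ℝ (pm L T x) u v)) =
        Dt L T z 0 := by rw [h5, map_zero]
    exact (De L T z).injective h7
  have h7 : fderiv ℝ (pm L T x) u v = 0 := by
    have h8 := (hδ z).2.2 _ hwc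
    have h9 := ((fderiv ℝ (lin L z) (pm L T x u) - ContinuousLinearMap.id ℝ E2)).le_opNorm
      (fderiv ℝ (pm L T x) u v)
    have h10 : (fderiv ℝ (lin L z) (pm L T x u) - ContinuousLinearMap.id ℝ E2)
        (fderiv ℝ (pm L T x) u v) = - fderiv ℝ (pm L T x) u v := by
      rw [ContinuousLinearMap.sub_apply, h6, zero_sub]
      rfl
    rw [h10, norm_neg] at h9
    have h11 : ‖fderiv ℝ (pm L T x) u v‖ ≤ 1 / 2 * ‖fderiv ℝ (pm L T x) u v‖ := by
      refine h9.trans ?_
      gcongr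
    have h12 := norm_nonneg (fderiv ℝ (pm L T x) u v)
    exact norm_eq_zero.1 (by linarith)
  have h8 := congrArg (fun A : E2 →L[ℝ] E2 => A v)
    (fderiv_tau_inv L (em_back L T x) (mem_dm_back L hT2 x hu))
  have h9 : fderiv ℝ (L.τ (L.φ (-T) x) x) (L.τ x (L.φ (-T) x) u)
      (fderiv ℝ (L.τ x (L.φ (-T) x)) u v) = v := h8
  have h10 : fderiv ℝ (L.τ x (L.φ (-T) x)) u v = 0 := h7
  rw [h10, map_zero] at h9
  exact h9.symm

/-- **(T1)** the affine charts of the leaves -/
theorem exists_aff : ∃ F : Aff L, (∀ x η, F.ch x η = F.c • aff L x η) ∧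
    (∀ x, ∀ u ∈ ball (0 : E2) 3, F.ch x (L.e x u) = F.c • lin L x u) ∧
    ∀ t x, ((F.P t x : E2 →L[ℝ] E2)) = Dt L t x := by
  obtain ⟨δ, hδ, hunit⟩ := Bu.aff_unit R hB
  choose pt hne hpt using Bu.aff_surj R hB
  have hex : ∀ x y : X, ∃ A : E2 ≃L[ℝ] E2, L.em x = L.em y →
      ∀ q, aff L y (pt x q) = A (q - aff L x (L.ep y)) := by
    intro x y
    by_cases h : L.em x = L.em y
    · obtain ⟨A, hA⟩ := Bu.exists_lin R hB hne hpt x y h
      exact ⟨A, fun _ => hA⟩
    · exact ⟨ContinuousLinearEquiv.refl ℝ E2, fun h' => absurd h' h⟩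
  choose A hA using hex
  set c : ℝ := 2 / δ with hc
  have hc0 : 0 < c := by positivity
  have hcc : ∀ v : E2, c • c⁻¹ • v = v := fun v => smul_inv_smul₀ hc0.ne' v
  have hcc' : ∀ v : E2, c⁻¹ • c • v = v := fun v => inv_smul_smul₀ hc0.ne' v
  have hptc := Bu.pt_cont R hB hne hpt
  have hche : ∀ x, ∀ u ∈ ball (0 : E2) 3, c • aff L x (L.e x u) = c • lin L x u :=
    fun x u hu => by rw [Bu.aff_e R hB x hu]
  have hev : ∀ x, ∀ u ∈ ball (0 : E2) 3,
      (fun u => c • aff L x (L.e x u)) =ᶠ[𝓝 u] fun u => c • lin L x u := fun x u hu => by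
    filter_upwards [isOpen_ball.mem_nhds hu] with w hw
    exact hche x w hw
  have hfd : ∀ x, ∀ u ∈ ball (0 : E2) 3, fderiv ℝ (fun u => c • aff L x (L.e x u)) u =
      c • fderiv ℝ (lin L x) u := fun x u hu => by
    rw [(hev x u hu).fderiv_eq]
    exact fderiv_const_smul (((Bu.jc_lin hB).smooth (x, u) ⟨trivial, hu⟩).differentiableAt
      (by simp)) c
  have hopen : IsOpen ((univ : Set X) ×ˢ ball (0 : E2) 3) := isOpen_univ.prod isOpen_ball
  have hjc : Vale.Agent.P207.N3.JC (fun x u => c • aff L x (L.e x u))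
      ((univ : Set X) ×ˢ ball (0 : E2) 3) := by
    have h1 : Vale.Agent.P207.N3.JC (lin L) ((univ : Set X) ×ˢ ball (0 : E2) 3) :=
      ⟨hopen, fun x u hu => ((Bu.jc_lin hB).smooth (x, u) hu).contDiffWithinAt,
        (Bu.jc_lin hB).cont⟩
    exact (h1.const_smul c).congr fun p hp => hche p.1 p.2 hp.2
  refine ⟨
  { ch := fun x η => c • aff L x η
    pt := fun x q => pt x (c⁻¹ • q)
    pt_ne := fun x q => hne x _
    ch_pt := fun x q => by rw [hpt, hcc]
    pt_ch := fun x η h => Bu.aff_inj R hB (hne x _) h (by rw [hpt, hcc'])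
    pt_zero := fun x => Bu.aff_inj R hB (hne x _) (L.em_ne_ep x).symm
      (by rw [hpt, smul_zero, Bu.aff_ep R hB])
    pt_cont := hptc.comp (continuous_fst.prodMk (continuous_snd.const_smul c⁻¹))
    ch_cont := fun p hp => ((Bu.aff_cont R hB hp).const_smul c).continuousWithinAt
    pt_smul := fun g x q => ?_
    pt_rot := fun g x q => ?_
    unit := fun x q hq => ?_
    jc := hjc
    c := c
    c_pos := hc0
    der_zero := fun x => by rw [hfd x 0 zero_mem3, Bu.fderiv_lin hB]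
    der_inv := fun x u hu => ?_
    P := De L
    P_fderiv := fun t x => ?_
    flow := fun t x q => ?_
    lin := A
    leaf := fun x y h q => ?_ }, fun x η => rfl, hche, fun t x => rfl⟩
  · have h1 : pt x (c⁻¹ • q) ≠ L.em x := hne x _
    refine Bu.aff_inj R hB (hne _ _) ?_ ?_
    · rw [L.em_smul]
      exact fun h => h1 (smul_left_cancel g h)
    · rw [hpt, Bu.aff_smul R hB g h1, hpt]
  · refine Bu.aff_inj R hB (hne _ _) ?_ ?_
    · rw [L.em_rot]; exact hne x _
    · rw [hpt, Bu.aff_rot R hB g (hne x _), hpt, ← map_smul, LinearIsometryEquiv.symm_apply_apply]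
  · refine hunit x _ (hne x _) ?_
    rw [hpt, norm_smul, Real.norm_of_nonneg (by positivity)]
    have h1 : ‖q‖ ≤ 2 := mem_closedBall_zero_iff.1 hq
    calc c⁻¹ * ‖q‖ ≤ c⁻¹ * 2 := by gcongr
      _ = δ := by rw [hc]; field_simp
  · obtain ⟨e, he⟩ := Bu.inv_inj (A := fderiv ℝ (fun u => c • aff L x (L.e x u)) u)
      (fun v hv => by
        rw [hfd x u hu] at hv
        refine lin_der_inj R hB x hu v ?_
        have h1 : c • fderiv ℝ (lin L x) u v = 0 := hv
        exact (smul_eq_zero.1 h1).resolve_left hc0.ne')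
    exact ⟨e, he⟩
  · rw [De_symm]
    unfold Dt
    rw [L.φ_neg]
  · refine Bu.aff_inj R hB (hne _ _) ?_ ?_
    · rw [L.em_φ]; exact hne x _
    · rw [hpt, Bu.aff_φ R hB t (hne x _), hpt, ← De_coe, map_smul]
      rfl
  · refine Bu.aff_inj R hB (hne _ _) ?_ ?_
    · rw [← h]; exact hne x _
    · rw [hpt, hA x y h, ← map_smul, smul_sub, hcc']

omit R hB in
/-- **(T1)** the affine charts of the leaves, from the rates with a clock -/
theorem exists_affV {L : Leaf Γ X B} {σ : ℝ → X → ℝ} {a b c₀ c₁ : ℝ}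
    (R : H77V.LRatesV L σ a b c₀ c₁) : ∃ F : Aff L, (∀ x η, F.ch x η = F.c • aff L x η) ∧
    (∀ x, ∀ u ∈ ball (0 : E2) 3, F.ch x (L.e x u) = F.c • lin L x u) ∧
    ∀ t x, ((F.P t x : E2 →L[ℝ] E2)) = Dt L t x :=
  exists_aff (Bu.crude_of R) (Bu.bun_of R)

end Vale.Agent.P207.N4.Y.H965
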